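import Vale.Agent.H43.P161.Monotone
import Vale.Agent.H43.P161.Semigroup

namespace Vale.Agent.Results.P161.A0_MonotoneAndProduct

open Vale.Agent.H43.P161

/-- Two structural facts about the set of `θ = tanh β ∈ [0,1]` for which the free Ising measure
on a tree is a factor of IID.  (1) Monotonicity: on every locally finite tree (in particular on the
`d`-regular tree) the set is a down-set: if `θ` belongs to it, so does every `θ' ∈ [0, θ]`.
(2) Product closure: on every tree the set is closed under multiplication. -/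
theorem result :
    (∀ {V : Type*} (G : SimpleGraph V), G.IsTree →
      (∀ v, (G.neighborSet v).Finite) → ∀ (o : V) (θ θ' : ℝ), 0 ≤ θ' → θ' ≤ θ → θ ≤ 1 →
      IsFIID G (isingFree G o θ) → IsFIID G (isingFree G o θ')) ∧
    (∀ {V : Type*} (G : SimpleGraph V), G.IsTree → ∀ (o : V) (θ₁ θ₂ : ℝ),
      0 ≤ θ₁ → θ₁ ≤ 1 → 0 ≤ θ₂ → θ₂ ≤ 1 →
      IsFIID G (isingFree G o θ₁) → IsFIID G (isingFree G o θ₂) →
      IsFIID G (isingFree G o (θ₁ * θ₂))) := by
  refine ⟨?_, ?_⟩
  · intro V G hG hlf o θ θ' h0 hle h1 h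
    exact isFIID_isingFree_mono G hG hlf o h0 hle h1 h
  · intro V G _ o θ₁ θ₂ h1 h1' h2 h2' hF1 hF2
    exact isFIID_isingFree_mul G o (abs_le.mpr ⟨by linarith, h1'⟩) (abs_le.mpr ⟨by linarith, h2'⟩)
      hF1 hF2

end Vale.Agent.Results.P161.A0_MonotoneAndProduct
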