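import Vale.Agent.H43.P161.Monotone

namespace Vale.Agent.Results.P161.A_Monotone

open Vale.Agent.H43.P161

/-- Monotonicity in the temperature: on every locally finite tree (in particular on the
`d`-regular tree), if the free Ising measure with `tanh β = θ ∈ [0,1]` is a factor of IID, then
so is the free Ising measure with `tanh β = θ'` for every `θ' ∈ [0, θ]`. -/
theorem result : ∀ {V : Type*} (G : SimpleGraph V), G.IsTree →
    (∀ v, (G.neighborSet v).Finite) → ∀ (o : V) (θ θ' : ℝ), 0 ≤ θ' → θ' ≤ θ → θ ≤ 1 →
    IsFIID G (isingFree G o θ) → IsFIID G (isingFree G o θ') := by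
  intro V G hG hlf o θ θ' h0 hle h1 h
  exact isFIID_isingFree_mono G hG hlf o h0 hle h1 h

end Vale.Agent.Results.P161.A_Monotone
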