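import Vale.Agent.H43.P161.Semigroup

namespace Vale.Agent.Results.P161.A_ProductClosure

open Vale.Agent.H43.P161

/-- On every tree, the set of `θ = tanh β ∈ [0,1]` for which the free Ising measure is a factor
of IID is closed under multiplication. -/
theorem result : ∀ {V : Type*} (G : SimpleGraph V), G.IsTree → ∀ (o : V) (θ₁ θ₂ : ℝ),
    0 ≤ θ₁ → θ₁ ≤ 1 → 0 ≤ θ₂ → θ₂ ≤ 1 →
    IsFIID G (isingFree G o θ₁) → IsFIID G (isingFree G o θ₂) →
    IsFIID G (isingFree G o (θ₁ * θ₂)) := by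
  intro V G _ o θ₁ θ₂ h1 h1' h2 h2' hF1 hF2
  exact isFIID_isingFree_mul G o (abs_le.mpr ⟨by linarith, h1'⟩) (abs_le.mpr ⟨by linarith, h2'⟩)
    hF1 hF2

end Vale.Agent.Results.P161.A_ProductClosure
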